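import Vale.Agent.Lib.P019.Rigidity

/-!
Rigidity for compatible isomorphisms out of `V ℓ k(x,y)`: two compatible isomorphisms which
agree on all classes `[x - c]` and `[y - a]` are equal.
-/

namespace Vale.Agent.Results.P019.Rigidity

open Vale.Agent.Lib.P019

theorem result {k F : Type*} [Field k] [IsAlgClosed k] [CharZero k] [Field F]
    {ℓ : ℕ} [Fact ℓ.Prime] (Θ Ψ : V ℓ (K2 k) ≃ₗ[ZMod ℓ] V ℓ F)
    (hΘ : Compatible Θ) (hΨ : Compatible Ψ)
    (hx : ∀ c : k, Θ (clsF ℓ (xK c)) = Ψ (clsF ℓ (xK c)))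
    (hy : ∀ a : k, Θ (clsF ℓ (yK a)) = Ψ (clsF ℓ (yK a))) : Θ = Ψ := by
  have key := rigidity (Θ.trans Ψ.symm) (hΘ.trans hΨ.symm)
    (fun c => by
      have h := hx c
      change Ψ.symm (Θ (clsF ℓ (xK c))) = clsF ℓ (xK c)
      rw [h, LinearEquiv.symm_apply_apply])
    (fun a => by
      have h := hy a
      change Ψ.symm (Θ (clsF ℓ (yK a))) = clsF ℓ (yK a)
      rw [h, LinearEquiv.symm_apply_apply])
  ext z
  have h2 : Ψ.symm (Θ z) = z := key z
  rw [LinearEquiv.symm_apply_eq] at h2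
  exact h2

end Vale.Agent.Results.P019.Rigidity
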