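import Vale.Agent.Results.P019.Uncountable
import Vale.Agent.Results.P019.Pencils
import Vale.Agent.Results.P019.Rigidity

open Vale.Agent.Lib.P019

universe u v

namespace Vale.Agent.Results.P019.A0Conj

/-- Every compatible isomorphism is good when `k` is uncountable. -/
def PartUncountable : Prop :=
  ∀ {k : Type u} {l : Type v} [Field k] [Field l] [IsAlgClosed k] [IsAlgClosed l]
    [CharZero k] [CharZero l] [Uncountable k] {ℓ : ℕ} [Fact ℓ.Prime]
    (Θ : V ℓ (K2 k) ≃ₗ[ZMod ℓ] V ℓ (K2 l)), Compatible Θ → Good Θ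

/-- Every compatible isomorphism preserving both coordinate pencils is good. -/
def PartPencils : Prop :=
  ∀ {k : Type u} {l : Type v} [Field k] [Field l] [IsAlgClosed k] [IsAlgClosed l]
    [CharZero k] [CharZero l] {ℓ : ℕ} [Fact ℓ.Prime]
    (Θ : V ℓ (K2 k) ≃ₗ[ZMod ℓ] V ℓ (K2 l)), Compatible Θ →
    (pencilX ℓ k).map Θ.toLinearMap = pencilX ℓ l →
    (pencilY ℓ k).map Θ.toLinearMap = pencilY ℓ l → Good Θ

/-- Two compatible isomorphisms agreeing on the classes of lines are equal. -/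
def PartRigidity : Prop :=
  ∀ {k : Type u} {F : Type v} [Field k] [IsAlgClosed k] [CharZero k] [Field F]
    {ℓ : ℕ} [Fact ℓ.Prime] (Θ Ψ : V ℓ (K2 k) ≃ₗ[ZMod ℓ] V ℓ F),
    Compatible Θ → Compatible Ψ →
    (∀ c : k, Θ (clsF ℓ (xK c)) = Ψ (clsF ℓ (xK c))) →
    (∀ a : k, Θ (clsF ℓ (yK a)) = Ψ (clsF ℓ (yK a))) → Θ = Ψ

/-- Compatible isomorphisms for uncountable `k`, for all `k` if the two coordinate pencils are
preserved, and the rigidity statement from classes of lines. -/
theorem result : PartUncountable.{u, v} ∧ PartPencils.{u, v} ∧ PartRigidity.{u, v} :=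
  ⟨@Vale.Agent.Results.P019.Uncountable.result, @Vale.Agent.Results.P019.Pencils.result,
    @Vale.Agent.Results.P019.Rigidity.result⟩

end Vale.Agent.Results.P019.A0Conj
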