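import Vale.Agent.Lib.P019.Final

/-!
For `k` uncountable: every compatible isomorphism `V ℓ k(x,y) → V ℓ l(u,v)` of the mod-`ℓ` data of
two rational function fields in two variables over algebraically closed fields of characteristic
zero is a scalar times the map induced by a field isomorphism carrying `k` onto `l`.
-/

namespace Vale.Agent.Results.P019.Uncountable

open Vale.Agent.Lib.P019

theorem result {k l : Type*} [Field k] [Field l] [IsAlgClosed k] [IsAlgClosed l]
    [CharZero k] [CharZero l] [Uncountable k] {ℓ : ℕ} [Fact ℓ.Prime]
    (Θ : V ℓ (K2 k) ≃ₗ[ZMod ℓ] V ℓ (K2 l)) (hΘ : Compatible Θ) : Good Θ :=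
  good_of_compatible hΘ

end Vale.Agent.Results.P019.Uncountable
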